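import Vale.Agent.H54.ZeroDiv

/-!
# P201 (Kaplansky zero-divisor conjecture): a closure theorem

If every finitely generated subgroup `H` of a group `G` either has a group algebra `K[H]`
without zero divisors, or has a proper normal subgroup `N` with unique-product quotient `H ⧸ N`,
then `K[G]` has no zero divisors.  The proof (in `Vale.Agent.H54.ZeroDiv`) is an induction on
the total size of the supports of a pair of zero divisors, in the style of Higman.
-/

namespace Vale.Agent.Results.P201.A_closure

theorem result (K : Type*) [Semiring K] (G : Type*) [Group G]
    (h : ∀ H : Subgroup G, H.FG →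
      NoZeroDivisors (MonoidAlgebra K H) ∨
        ∃ N : Subgroup H, ∃ _ : N.Normal, N ≠ ⊤ ∧ UniqueProds (H ⧸ N)) :
    NoZeroDivisors (MonoidAlgebra K G) :=
  Vale.Agent.H54.noZeroDivisors_of_fg_subgroups h

end Vale.Agent.Results.P201.A_closure
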