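import Vale.Agent.H54.ZeroDiv

/-!
# P201 (Kaplansky zero-divisor conjecture): the closure theorem and the extension theorem

For every semiring `K` and every group `G`:

1. if every finitely generated subgroup `H` of `G` either has a group algebra `K[H]` without
   zero divisors, or has a proper normal subgroup `N` with unique-product quotient `H ⧸ N`,
   then `K[G]` has no zero divisors;
2. if `N` is a normal subgroup of `G` such that `K[N]` has no zero divisors and `G ⧸ N` has the
   unique-product property, then `K[G]` has no zero divisors.

Parts 1 and 2 are the statements of the hand-ins `A_closure` and `B_extension` of this folder;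
both proofs are in `Vale.Agent.H54.ZeroDiv`.
-/

namespace Vale.Agent.Results.P201.A_closureAndExtension

theorem result (K : Type*) [Semiring K] (G : Type*) [Group G] :
    ((∀ H : Subgroup G, H.FG →
        NoZeroDivisors (MonoidAlgebra K H) ∨
          ∃ N : Subgroup H, ∃ _ : N.Normal, N ≠ ⊤ ∧ UniqueProds (H ⧸ N)) →
      NoZeroDivisors (MonoidAlgebra K G)) ∧
    (∀ (N : Subgroup G) [N.Normal], NoZeroDivisors (MonoidAlgebra K N) →
      UniqueProds (G ⧸ N) → NoZeroDivisors (MonoidAlgebra K G)) :=
  ⟨fun h => Vale.Agent.H54.noZeroDivisors_of_fg_subgroups h,
   fun N _ _ _ => Vale.Agent.H54.noZeroDivisors_of_normal_of_uniqueProds N⟩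

end Vale.Agent.Results.P201.A_closureAndExtension
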