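import Vale.Agent.H54.ZeroDiv

/-!
# P201 (Kaplansky zero-divisor conjecture): extensions with unique-product quotient

If `N` is a normal subgroup of `G` such that `K[N]` has no zero divisors and `G ⧸ N` has the
unique-product property, then `K[G]` has no zero divisors.
-/

namespace Vale.Agent.Results.P201.B_extension

theorem result (K : Type*) [Semiring K] (G : Type*) [Group G] (N : Subgroup G) [N.Normal]
    [NoZeroDivisors (MonoidAlgebra K N)] [UniqueProds (G ⧸ N)] :
    NoZeroDivisors (MonoidAlgebra K G) :=
  Vale.Agent.H54.noZeroDivisors_of_normal_of_uniqueProds N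

end Vale.Agent.Results.P201.B_extension
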